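import Vale.Agent.P146.R2.H729.TrSpec

/-!
# P146, transport, row G: the pressure of the transported matrix
-/

open MeasureTheory ProbabilityTheory Matrix Filter Topology

namespace Vale.Agent.P146.R2.H49.Tr

open Vale.Agent.P166 Vale.Agent.P146 Vale.Agent.P146.R3
open Vale.Agent.P146.R2.H432 (cheb)
open Vale.Agent.P146.R3.H432 (Qm Om)
open Vale.Agent.P146.R3.H952 (MinProf)
open Vale.Agent.P146.R2.H729.Tr (hm)
open Vale.Agent.P146.Sk (Wm Ix)

/-- the pressure is convex in the matrix -/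
theorem pr_convex_mat (N : ℕ) :
    ConvexOn ℝ Set.univ fun M : Matrix (Fin N) (Fin N) ℝ => pressure N 1 M := by
  refine ⟨convex_univ, fun J _ K _ a b ha hb hab => ?_⟩
  have h := (H501.pr_convex J ((2 : ℝ)⁻¹ • (K - J))).2 (Set.mem_univ (0 : ℝ))
    (Set.mem_univ (1 : ℝ)) ha hb hab
  simp only [smul_eq_mul, mul_zero, zero_add, zero_smul, add_zero, mul_one] at h
  have e1 : J + (2 * b) • (2 : ℝ)⁻¹ • (K - J) = a • J + b • K := by
    rw [smul_smul, show 2 * b * (2 : ℝ)⁻¹ = b by ring, smul_sub, eq_sub_of_add_eq hab, sub_smul,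
      one_smul]
    abel
  have e2 : J + (2 : ℝ) • (2 : ℝ)⁻¹ • (K - J) = K := by
    rw [smul_smul, mul_inv_cancel₀ two_ne_zero, one_smul]
    abel
  rw [e1, e2] at h
  exact h

/-- the limits of the perturbed pressures and their derivative -/
theorem exists_fk {β : ℝ} (hβ : 1 ≤ β) {x : ℝ → ℝ} (hx : MinProf β x) (k : ℕ) :
    ∃ f : ℝ → ℝ, HasDerivAt f (mk β x k) 0 ∧ f 0 = Sh.P0 β ∧
      ∀ s, ∀ᵐ ω ∂Qm, Tendsto (fun N : ℕ => pressure N 1
        (β • Wm N (Vale.Agent.P146.R3.H432.zz N ω) +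
          (2 * s) • cheb k (Wm N (Vale.Agent.P146.R3.H432.zz N ω)))) atTop (𝓝 (f s)) := by
  obtain ⟨f, h1, h2⟩ := H501.exists_lim β k (fun s => H49.isProb_muS β k s)
    (fun s => H49.isCompact_support β k s)
  obtain ⟨f', h3, h4, -⟩ := H501.n4_sk β k
  have hff : f = f' := funext fun s => (h1 s).unique (h4 s)
  subst hff
  refine ⟨f, H952.deriv_prof (by linarith) hx k h3 h1, ?_, fun s => ?_⟩
  · have h5 := h1 0
    rw [H501.muS_zero] at h5
    exact h5.unique (H501.glb_sk hβ)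
  · exact h2 Om Qm (fun N ω => β • Wm N (Vale.Agent.P146.R3.H432.zz N ω))
      (fun N ω => cheb k (Wm N (Vale.Agent.P146.R3.H432.zz N ω)))
      (fun s => H432.ensemble β k s) s

theorem rowG : Vale.Agent.P146.R2.H729.Tr.StG := by
  intro β hβ x hx L c ε hε
  choose f hf1 hf2 hf3 using fun k : ℕ => exists_fk hβ hx (k + 1)
  rcases Nat.eq_zero_or_pos L with hL | hL
  · subst hL
    refine ⟨1, one_pos, fun η hη _ => ?_⟩
    filter_upwards [hf3 0 0] with ω hω
    rw [hf2] at hω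
    have hlt : Sh.P0 β < Sh.P0 β + η * ε := by nlinarith
    filter_upwards [hω.eventually_lt_const hlt] with N hN
    have e1 : β • (Wm N (Vale.Agent.P146.R3.H432.zz N ω) -
        η • hm 0 c (Wm N (Vale.Agent.P146.R3.H432.zz N ω))) =
        β • Wm N (Vale.Agent.P146.R3.H432.zz N ω) +
          (2 * (0 : ℝ)) • cheb (0 + 1) (Wm N (Vale.Agent.P146.R3.H432.zz N ω)) := by
      simp [hm]
    rw [e1]
    refine hN.le.trans (le_of_eq ?_)
    simp
  have hL0 : (0 : ℝ) < L := by exact_mod_cast hL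
  -- the tolerance
  obtain ⟨C, hC⟩ : ∃ C : ℝ, C = ∑ k ∈ Finset.range L, |c k| := ⟨_, rfl⟩
  have hC0 : 0 ≤ C := by rw [hC]; exact Finset.sum_nonneg fun _ _ => abs_nonneg _
  obtain ⟨e, he⟩ : ∃ e : ℝ, e = ε / (β * (C + 1)) := ⟨_, rfl⟩
  have hβ0 : 0 < β := by linarith
  have he0 : 0 < e := by rw [he]; positivity
  have hd : ∀ k : ℕ, ∃ d : ℝ, 0 < d ∧ ∀ s : ℝ, |s| ≤ d →
      f k s ≤ Sh.P0 β + s * mk β x (k + 1) + e * |s| := by
    intro k
    have h1 := (hasDerivAt_iff_isLittleO.1 (hf1 k)).def he0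
    obtain ⟨d, hd0, hd⟩ := Metric.eventually_nhds_iff.1 h1
    refine ⟨d / 2, by positivity, fun s hs => ?_⟩
    have h2 := hd (y := s) (by rw [Real.dist_eq, sub_zero]; linarith)
    rw [sub_zero, hf2, Real.norm_eq_abs, Real.norm_eq_abs, smul_eq_mul] at h2
    have h3 := (abs_le.1 h2).2
    linarith
  choose d hd0 hd1 using hd
  -- the size of `η`
  obtain ⟨δ, hδ0, hδ⟩ : ∃ δ : ℝ, 0 < δ ∧ ∀ k ∈ Finset.range L,
      β * δ * L * |c k| / 2 ≤ d k := by
    have h1 : ∀ k ∈ Finset.range L, ∀ᶠ δ : ℝ in 𝓝[>] 0, β * δ * L * |c k| / 2 ≤ d k := by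
      intro k _
      have h2 : Tendsto (fun δ : ℝ => β * δ * L * |c k| / 2) (𝓝[>] 0) (𝓝 0) := by
        have h3 : Continuous fun δ : ℝ => β * δ * L * |c k| / 2 := by fun_prop
        have h4 := h3.tendsto 0
        simp only [mul_zero, zero_mul, zero_div] at h4
        exact h4.mono_left nhdsWithin_le_nhds
      exact (h2.eventually_lt_const (hd0 k)).mono fun _ h => h.le
    have h5 := (Finset.eventually_all (Finset.range L)).2 h1
    obtain ⟨δ, h6, h7⟩ := (h5.and self_mem_nhdsWithin).exists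
    exact ⟨δ, h7, h6⟩
  refine ⟨δ, hδ0, fun η hη hηδ => ?_⟩
  obtain ⟨s, hs⟩ : ∃ s : ℕ → ℝ, s = fun k => -(β * η * L * c k) / 2 := ⟨_, rfl⟩
  have hsabs : ∀ k, |s k| = β * η * L * |c k| / 2 := by
    intro k
    rw [hs]
    simp only [neg_div, abs_neg, abs_div, abs_mul, abs_of_pos hβ0, abs_of_pos hη,
      abs_of_pos hL0, abs_of_pos (two_pos : (0 : ℝ) < 2)]
  have hall : ∀ᵐ ω ∂Qm, ∀ k : ℕ, Tendsto (fun N : ℕ => pressure N 1
      (β • Wm N (Vale.Agent.P146.R3.H432.zz N ω) +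
        (2 * s k) • cheb (k + 1) (Wm N (Vale.Agent.P146.R3.H432.zz N ω)))) atTop
      (𝓝 (f k (s k))) := ae_all_iff.2 fun k => hf3 k (s k)
  filter_upwards [hall] with ω hω
  have hlim : Tendsto (fun N : ℕ => ∑ k ∈ Finset.range L, (L : ℝ)⁻¹ * pressure N 1
      (β • Wm N (Vale.Agent.P146.R3.H432.zz N ω) +
        (2 * s k) • cheb (k + 1) (Wm N (Vale.Agent.P146.R3.H432.zz N ω)))) atTop
      (𝓝 (∑ k ∈ Finset.range L, (L : ℝ)⁻¹ * f k (s k))) :=
    tendsto_finsetSum _ fun k _ => (hω k).const_mul _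
  have hval : ∑ k ∈ Finset.range L, (L : ℝ)⁻¹ * f k (s k) <
      Sh.P0 β - η * (β / 2 * ∑ k ∈ Finset.range L, c k * mk β x (k + 1) - ε) := by
    have h1 : ∑ k ∈ Finset.range L, (L : ℝ)⁻¹ * f k (s k) ≤ ∑ k ∈ Finset.range L,
        ((L : ℝ)⁻¹ * Sh.P0 β - η * (β / 2 * (c k * mk β x (k + 1))) +
          η * (β / 2 * e * |c k|)) := by
      refine Finset.sum_le_sum fun k hk => ?_
      have h2 := hd1 k (s k) (by
        rw [hsabs]
        refine le_trans ?_ (hδ k hk)
        gcongr)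
      rw [hsabs] at h2
      have h3 := mul_le_mul_of_nonneg_left h2 (inv_nonneg.2 hL0.le)
      refine h3.trans (le_of_eq ?_)
      rw [hs]
      field_simp
      ring
    refine h1.trans_lt ?_
    rw [Finset.sum_add_distrib, Finset.sum_sub_distrib, Finset.sum_const, Finset.card_range,
      nsmul_eq_mul, ← mul_assoc, mul_inv_cancel₀ hL0.ne', one_mul, ← Finset.mul_sum,
      ← Finset.mul_sum, ← Finset.mul_sum, ← Finset.mul_sum, ← hC]
    have h4 : β / 2 * e * C < ε := by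
      rw [he]
      have h5 : β / 2 * (ε / (β * (C + 1))) * C = ε * (C / (2 * (C + 1))) := by
        field_simp
      rw [h5]
      have h6 : C / (2 * (C + 1)) < 1 := by
        rw [div_lt_one (by positivity)]
        linarith
      calc ε * (C / (2 * (C + 1))) < ε * 1 := mul_lt_mul_of_pos_left h6 hε
        _ = ε := mul_one _
    have h7 := mul_lt_mul_of_pos_left h4 hη
    linarith
  filter_upwards [hlim.eventually_lt_const hval] with N hN
  refine le_trans ?_ hN.le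
  have hJ := (pr_convex_mat N).map_sum_le (t := Finset.range L) (w := fun _ => (L : ℝ)⁻¹)
    (p := fun k => β • Wm N (Vale.Agent.P146.R3.H432.zz N ω) +
        (2 * s k) • cheb (k + 1) (Wm N (Vale.Agent.P146.R3.H432.zz N ω)))
    (fun _ _ => inv_nonneg.2 hL0.le) (by
      rw [Finset.sum_const, Finset.card_range, nsmul_eq_mul, mul_inv_cancel₀ hL0.ne'])
    (fun _ _ => Set.mem_univ _)
  have e1 : β • (Wm N (Vale.Agent.P146.R3.H432.zz N ω) -
      η • hm L c (Wm N (Vale.Agent.P146.R3.H432.zz N ω))) =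
      ∑ k ∈ Finset.range L, (L : ℝ)⁻¹ • (β • Wm N (Vale.Agent.P146.R3.H432.zz N ω) +
        (2 * s k) • cheb (k + 1) (Wm N (Vale.Agent.P146.R3.H432.zz N ω))) := by
    simp only [smul_add, Finset.sum_add_distrib]
    rw [Finset.sum_const, Finset.card_range, ← Nat.cast_smul_eq_nsmul ℝ, smul_smul,
      mul_inv_cancel₀ hL0.ne', one_smul, smul_sub, sub_eq_add_neg]
    congr 1
    unfold hm
    rw [Finset.smul_sum, Finset.smul_sum, ← Finset.sum_neg_distrib]
    refine Finset.sum_congr rfl fun k _ => ?_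
    rw [smul_smul, smul_smul, smul_smul, ← neg_smul]
    congr 1
    rw [hs]
    field_simp
  rw [e1]
  simpa only [smul_eq_mul] using hJ

end Vale.Agent.P146.R2.H49.Tr
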