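import Vale.Agent.P146.R2.H952.XDef
import Vale.Agent.P146.R3.H49.Supp
import Vale.Agent.P146.R3.H49.Diff

/-!
# P146, exponent 12/5, row H2: the inverse Stieltjes transform near the edge
-/

open MeasureTheory Set Filter Topology

namespace Vale.Agent.P146.R2.H49.X

open Vale.Agent.P166 Vale.Agent.P146.R3 Vale.Agent.P146.R3.H49

variable {b d e a : ℝ} {h : ℝ → ℝ}

lemma cont_f (b a : ℝ) (hc : Continuous h) : Continuous fun x => b * (x - h x) + a := by fun_prop

lemma supp_sub (hc : Continuous h) {T : Set ℝ} (hT : IsClosed T)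
    (H : ∀ x ∈ Icc (-2 : ℝ) 2, b * (x - h x) + a ∈ T) :
    (sc.map fun x => b * (x - h x) + a).support ⊆ T := by
  refine Measure.support_subset_of_isClosed hT ?_
  show ∀ᵐ x ∂(sc.map fun x => b * (x - h x) + a), x ∈ T
  refine (ae_map_iff (cont_f b a hc).measurable.aemeasurable (p := fun x => x ∈ T)
    hT.measurableSet).2 ?_
  filter_upwards [sc_ae] with x hx using H x hx

lemma isProb (hc : Continuous h) : IsProbabilityMeasure (sc.map fun x => b * (x - h x) + a) :=
  Measure.isProbabilityMeasure_map (cont_f b a hc).measurable.aemeasurable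

lemma sSup_le (hc : Continuous h) {c : ℝ} (H : ∀ x ∈ Icc (-2 : ℝ) 2, b * (x - h x) + a ≤ c) :
    sSup (sc.map fun x => b * (x - h x) + a).support ≤ c := by
  have := isProb (b := b) (a := a) hc
  exact csSup_le (Measure.nonempty_support (IsProbabilityMeasure.ne_zero _)) fun x hx =>
    supp_sub hc isClosed_Iic H hx

lemma sInv_le {μ : Measure ℝ} {y z : ℝ} (h1 : sSup μ.support < z)
    (h2 : ∫ x, (z - x)⁻¹ ∂μ ≤ y) : stInv μ y ≤ z :=
  csInf_le ⟨_, fun _ hz => hz.1.le⟩ ⟨h1, h2⟩

lemma integral_h (hc : Continuous h) (z : ℝ) :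
    ∫ x, (z - x)⁻¹ ∂(sc.map fun x => b * (x - h x) + a) =
      ∫ x, (z - (b * (x - h x) + a))⁻¹ ∂sc := by
  rw [integral_map (cont_f b a hc).measurable.aemeasurable]
  exact ((measurable_const.sub measurable_id).inv).aestronglyMeasurable

lemma two_lt {y z : ℝ} (hz : z ∈ SS b 0 0 y) : 2 * b < z := by
  have h1 := (le_sSup_support b 0 0).trans_lt hz.1
  rw [hs_zero] at h1
  linarith

theorem h3 (hb : 0 < b) (hc : Continuous h) (h0 : ∀ x ∈ Icc (-2 : ℝ) 2, 0 ≤ h x)
    (i : ∀ x ∈ Icc (-2 : ℝ) 2, x - h x < 2 - d) (ii : ∫ x, (2 - d - x + h x)⁻¹ ∂sc ≤ 1 - e) :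
    (∀ y, 0 < y →
      stInv (sc.map fun x => b * (x - h x) + a) y ≤ stInv (muS b 0 0) y + a) ∧
    (∀ y, 0 < y → 1 - e ≤ b * y →
      stInv (sc.map fun x => b * (x - h x) + a) y ≤ stInv (muS b 0 0) y + a - b * d) := by
  refine ⟨fun y hy => ?_, fun y hy hey => ?_⟩
  · rw [← sub_le_iff_le_add]
    refine le_stInv hy fun z hz => ?_
    rw [sub_le_iff_le_add]
    have hz2 := two_lt hz
    have hle : ∀ x ∈ Icc (-2 : ℝ) 2, b * (x - h x) ≤ b * x := fun x hx =>
      mul_le_mul_of_nonneg_left (by linarith [h0 x hx]) hb.le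
    have hle2 : ∀ x ∈ Icc (-2 : ℝ) 2, b * x ≤ 2 * b := fun x hx => by nlinarith [hx.2]
    refine sInv_le ((sSup_le (c := 2 * b + a) hc fun x hx => by
      linarith [hle x hx, hle2 x hx]).trans_lt (by linarith)) ?_
    have hzz := hz.2
    rw [integral_muS] at hzz
    rw [integral_h hc]
    refine le_trans ?_ hzz
    have hpos : 0 < z - 2 * b := by linarith
    refine integral_mono_ae ?_ ?_ ?_
    · refine integrable_sc (C := (z - 2 * b)⁻¹)
        ((measurable_const.sub (cont_f b a hc).measurable).inv) fun x hx => ?_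
      have h1 : z - 2 * b ≤ z + a - (b * (x - h x) + a) := by linarith [hle x hx, hle2 x hx]
      rw [abs_of_pos (inv_pos.2 (hpos.trans_le h1))]
      exact inv_anti₀ hpos h1
    · refine integrable_sc (C := (z - 2 * b)⁻¹)
        ((measurable_const.sub (continuous_hs b 0 0).measurable).inv) fun x hx => ?_
      rw [hs_zero]
      have h1 : z - 2 * b ≤ z - b * x := by linarith [hle2 x hx]
      rw [abs_of_pos (inv_pos.2 (hpos.trans_le h1))]
      exact inv_anti₀ hpos h1
    · filter_upwards [sc_ae] with x hx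
      rw [hs_zero]
      exact inv_anti₀ (by linarith [hle2 x hx]) (by linarith [hle x hx])
  · have h1 : stInv (sc.map fun x => b * (x - h x) + a) y ≤ b * (2 - d) + a := by
      refine sInv_le ?_ ?_
      · obtain ⟨x₀, hx₀, hmax⟩ := isCompact_Icc.exists_isMaxOn
          (nonempty_Icc.2 (by norm_num : (-2 : ℝ) ≤ 2)) (cont_f b a hc).continuousOn
        refine (sSup_le hc fun x hx => hmax hx).trans_lt ?_
        have := mul_lt_mul_of_pos_left (i x₀ hx₀) hb
        linarith
      · rw [integral_h hc]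
        have h2 : (fun x => (b * (2 - d) + a - (b * (x - h x) + a))⁻¹) =
            fun x => b⁻¹ * (2 - d - x + h x)⁻¹ := by
          funext x
          rw [← mul_inv]
          congr 1
          ring
        rw [h2, integral_const_mul]
        calc b⁻¹ * ∫ x, (2 - d - x + h x)⁻¹ ∂sc ≤ b⁻¹ * (b * y) :=
              mul_le_mul_of_nonneg_left (ii.trans hey) (inv_pos.2 hb).le
          _ = y := by field_simp
    have h2 : 2 * b ≤ stInv (muS b 0 0) y := le_stInv hy fun z hz => (two_lt hz).le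
    linarith

/-- row H2 -/
theorem stH2 (h1 : Vale.Agent.P146.R2.H952.X.StH1) : Vale.Agent.P146.R2.H952.X.StH2 := by
  intro c hc hc1
  obtain ⟨τ, κ, hτ, hτc, hκ, H⟩ := h1 c hc hc1
  refine ⟨τ, κ, hτ, hκ, fun β hβ ε hε hε1 h h0 hh hpos hedge μ hμ => ?_⟩
  have hii := H ε hε hε1 h hh hpos hedge
  have hi : ∀ x ∈ Icc (-2 : ℝ) 2, x - h x < 2 - τ * ε := by
    intro x hx
    rcases le_total x (2 - ε) with h2 | h2
    · have h3 := hpos x hx
      have h4 : τ * ε < 1 * ε := mul_lt_mul_of_pos_right (by linarith) hε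
      linarith
    · have h3 := hedge x ⟨h2, hx.2⟩
      have h4 : τ * ε < c * ε := mul_lt_mul_of_pos_right hτc hε
      have := hx.2
      linarith
  have hμ' : μ = sc.map fun x => β * (x - h x) + β * h0 := by
    rw [hμ]
    congr 1
    funext x
    ring
  have h5 := h3 (a := β * h0) hβ hh hpos hi hii
  rw [← hμ'] at h5
  exact h5

end Vale.Agent.P146.R2.H49.X
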